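import Vale.Agent.P088.H207.O2

open Manifold Set Vale.Agent.P088.B Vale.Agent.P088.B8 Vale.Agent.P088.H207
open scoped ContDiff Matrix

namespace Vale.Agent.Results.P088.ConfBall

universe u

/-- Uniqueness near the conformally flat metrics, the second pair being changed on a compact set of
a chart, for an arbitrary manifold and data on an arbitrary patch of the boundary. -/
theorem result {n : ℕ} [NeZero n] (hn : 3 ≤ n) : ∃ k : ℕ, ∀ R : ℝ, 0 < R →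
    ∀ c : V n → ℝ, Pos c → ∀ B : ℝ, 0 < B → ∃ ε : ℝ, 0 < ε ∧
    ∀ {N : ℕ} (_ : 1 ≤ N) {M : Type u} [TopologicalSpace M]
    [ChartedSpace (EuclideanHalfSpace n) M] [IsManifold (𝓡∂ n) ∞ M] [T2Space M] [CompactSpace M]
    [ConnectedSpace M] (Z : At n M) (_ : Z = at_ n M) (Γ O₀ : Set M) (_ : IsOpen O₀)
    (_ : Γ = O₀ ∩ bd Z) (_ : Γ.Nonempty) (P P' Q Q' : Pair Z N) (_ : SameData Γ P Q)
    (_ : Related Γ P P') (_ : Related Γ Q Q') (p : M) (W : Set (V n)) (_ : IsOpn Z p W)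
    (_ : MatchO (cdel c) P' p W)
    (K : Set (V n)) (_ : IsCompact K) (_ : K ⊆ W) (_ : ∀ y ∈ K, ∀ j, |y j| ≤ R)
    (_ : IsPreconnected ((bd Z)ᶜ \ inM Z p K)) (_ : PwLe (inM Z p K)ᶜ Γ P' Q')
    (_ : ∃ U, GaugeBy U (inM Z p K)ᶜ Γ P'.A Q'.A Z)
    (_ : CloseO k ε (cdel c) Q' p W ∨ NearO k B ε Q' p W), Related Γ P Q :=
  R.semi_open2 hn

end Vale.Agent.Results.P088.ConfBall
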