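import Vale.Agent.P088.H599.S.Tr

open Vale.Agent.P088.B Vale.Agent.P088.H207 Vale.Agent.P088.H599.S

namespace Vale.Agent.Results.P088.JointBall

universe u

/-- Uniqueness of the metric and the connection together, on an arbitrary manifold, with data on an
arbitrary patch of the boundary: (I) bounded perturbations with small support of any pair whose
metric is conformally flat near an interior point; (II) small perturbations in a ball of any size of
the pairs which are near the trivial one in the ball. -/
theorem result {n N : ℕ} [NeZero n] (hn : 3 ≤ n) (hN : 1 ≤ N) :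
    ∃ k : ℕ, (∀ (c : V n → ℝ) (α : Fin n → V n → Matrix (Fin N) (Fin N) ℂ), SmPair c α →
      ∀ B : ℝ, 0 < B → ∃ r₀ : ℝ, 0 < r₀ ∧ ∀ r : ℝ, 0 < r → r ≤ r₀ → UniqT.{u} n N k c α r B) ∧
    ∀ r : ℝ, 0 < r → ∃ ε : ℝ, 0 < ε ∧ ∀ (c : V n → ℝ)
      (α : Fin n → V n → Matrix (Fin N) (Fin N) ℂ), NearC k ε c → NearA k ε α →
      UniqT.{u} n N k c α r ε :=
  joint_tr hn hN

end Vale.Agent.Results.P088.JointBall
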