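import Vale.Agent.P088.H599.J.All
import Vale.Agent.P088.H27.JERes
import Vale.Agent.P088.H27.PAll
import Vale.Agent.P088.H738.G.All

open Set Vale.Agent.P088.LR Vale.Agent.P088.LR.B Vale.Agent.P088.LR.CF
open scoped ContDiff Matrix

namespace Vale.Agent.Results.P088.JointLocal

/-- Joint uniqueness of the metric and of the unitary connection (any rank `N`). (I) On every smooth
bounded domain, data on any patch `∂Ω ∩ G`, no condition at the patch, the pairs equal near the rest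
of the boundary: the pair `(c e, A₁)` near `(e, A₀)`, `A₀` any globally trivial connection, among
all pairs `(g, A₂)` with bounded derivatives, `g` only `C^0`-near its conformal class, `A₂` only
`C^0`-near `A₀`. (II) On every regular domain with contact at the boundary, near `(e, 0)`, `k` and
`ε` uniform in the domain. -/
theorem result (n N : ℕ) (hn : 3 ≤ n) (hN : 1 ≤ N) :
    -- every smooth bounded domain, no condition at the boundary
    (∀ ρ : V n → ℝ, SDom ρ → ∀ A₀ : Cn n N, SmU A₀ → (∃ W, Gau₀ (Om ρ) W 0 A₀) → ∀ b : ℕ → ℝ,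
      ∃ (k : ℕ) (ε : ℝ), 0 < ε ∧ ∀ (c : V n → ℝ) (g : MF n),
      ContDiff ℝ ∞ c → (∀ x, 0 < c x) → SmM g → (∀ x, (g x).PosDef) → Cl k ε (fun x => c x - 1) →
      (∀ i j, E.Cb k b (fun x => g x i j)) → (∀ x, (b 0)⁻¹ ≤ (g x).det) →
      (∀ i j x, |g x i j - sc (fun x => (g x).det ^ (1 / (n : ℝ))) x i j| ≤ ε) →
      ∀ A₁ A₂ : Cn n N, SmU A₁ → SmU A₂ →
      (∀ i α β, Cl k ε fun x => A₁ i x α β - A₀ i x α β) →
      (∀ i α β, ∀ l ≤ k, ∀ x, ‖iteratedFDeriv ℝ l (fun x => A₂ i x α β) x‖ ≤ b l) →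
      (∀ i x α β, ‖A₂ i x α β - A₀ i x α β‖ ≤ ε) →
      ∀ G : Set (V n), IsOpen G → P.Acc ρ G (sc c) A₁ g A₂ → P.SDG G (Om ρ) (sc c) A₁ g A₂ →
      ∃ Φ Ψ U, ConfOn ρ c g Φ Ψ ∧ Gau (Om ρ) U (Vale.Agent.P088.LR.H158.pbF Φ A₁) A₂) ∧
    -- every regular domain, contact at the boundary, `k` and `ε` uniform in the domain
    ∃ k : ℕ, ∀ R : ℝ, 0 < R → ∃ ε > 0,
      ∀ (Ω : Set (V n)), IsOpen Ω → interior (closure Ω) = Ω → Ω ⊆ {x | ∀ j, |x j| ≤ R} →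
      ∀ (c : V n → ℝ) (g : MF n), ContDiff ℝ ∞ c → (∀ x, 0 < c x) → SmM g →
      (∀ x, (g x).PosDef) → (∀ x ∉ Ω, g x = sc c x) → Cl k ε (fun x => c x - 1) →
      (∀ i j, Cl k ε (fun x => g x i j - (1 : Matrix (Fin n) (Fin n) ℝ) i j)) →
      ∀ A₁ A₂ : Cn n N, SmU A₁ → SmU A₂ → (∀ i, ∀ x ∉ Ω, A₂ i x = A₁ i x) →
      (∀ i a b, Cl k ε fun x => A₁ i x a b) → (∀ i a b, Cl k ε fun x => A₂ i x a b) →
      SDU Ω (sc c) A₁ g A₂ →
      ∃ w K U, Dif Ω w K ∧ (∀ x, g x = c (x + w x) • ((jm w x)ᵀ * jm w x)) ∧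
        Gau Ω U (pb w A₁) A₂ :=
  ⟨fun ρ hρ A₀ hA₀ hT b => K27.joint_patchJE G.finJE K27.rowSDU n N hn hN ρ hρ A₀ hA₀ hT b,
    Vale.Agent.P088.LR.U.loc n N hn hN⟩

end Vale.Agent.Results.P088.JointLocal
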