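import Vale.Agent.P088.H198.SdQ
import Vale.Agent.P088.H738.E2.All
import Vale.Agent.P088.H641.L.E

open Set Vale.Agent.P088.LR Vale.Agent.P088.LR.B Vale.Agent.P088.LR.CF
open scoped ContDiff Matrix

namespace Vale.Agent.Results.P088.SmoothDomains

/-- Uniqueness on every smooth bounded domain `{ρ > 0}`. (I) Every conformally flat metric `c e`, and
every pair (such a metric, globally trivial connection), data on any patch, no condition at the
patch: among all metrics with bounded derivatives which are `C^0`-near some conformally flat metric.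
(II) Two general metrics near `e` in relative harmonic gauge: they are equal unless their difference
oscillates. -/
theorem result (n : ℕ) (hn : 3 ≤ n) (ρ : V n → ℝ) (hρ : SDom ρ) :
    (∀ c : V n → ℝ, ContDiff ℝ ∞ c → (∀ x, 0 < c x) → ∀ b : ℕ → ℝ,
      ∃ (k : ℕ) (ε : ℝ), 0 < ε ∧ ∀ g : MF n, SmM g → (∀ x, (g x).PosDef) →
      (∀ i j, E.Cb k b (fun x => g x i j)) → (∀ x, (b 0)⁻¹ ≤ (g x).det) →
      (∀ i j x, |g x i j - sc (fun x => (g x).det ^ (1 / (n : ℝ))) x i j| ≤ ε) →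
      RigP ρ c g) ∧
    ∀ K : ℝ, ∃ ε > 0, ∀ g₁ g₂ : MF n, SmM g₁ → SmM g₂ → (∀ x, (g₁ x).PosDef) →
      (∀ x, (g₂ x).PosDef) → (∀ x ∈ Om ρ, ∀ i j, |g₁ x i j - dl i j| ≤ ε) →
      (∀ x ∈ Om ρ, ∀ i j, |g₂ x i j - dl i j| ≤ ε) →
      Vale.Agent.P088.H639.SE (Om ρ) (sg g₁) (sg g₂) → (∀ x ∉ Om ρ, g₂ x = g₁ x) →
      (∀ j x, ∑ i, pd i (fun y => sg g₂ y i j - sg g₁ y i j) x = 0) →
      (∀ M, (∀ i j x, |sg g₂ x i j - sg g₁ x i j| ≤ M) → ∀ i j x y,
        |(sg g₂ x i j - sg g₁ x i j) - (sg g₂ y i j - sg g₁ y i j)| ≤ K * M * dist x y) →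
      ∀ x, g₂ x = g₁ x :=
  ⟨fun c hc hc0 b => ((smooth_domainsP sdu_all E2.finD_all n hn ρ hρ).2 c hc hc0).2 b,
    fun K => Vale.Agent.P088.H641.L.two_metrics_dom hn ρ hρ K⟩

end Vale.Agent.Results.P088.SmoothDomains
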